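import Vale.Agent.FK.Statement
import Vale.Agent.FK.Width

namespace Vale.Agent.Results.P063.FriedgutKalai

open FK

/-- **The Friedgut-Kalai threshold width conjecture**, for graph properties (Q1) and for `r`-uniform
hypergraph properties (Q2). -/
theorem result :
    (∀ ε : ℝ, 0 < ε → ε < 1 / 2 → ∃ C : ℝ, ∀ n : ℕ, 2 ≤ n → ∀ P : Set (Edge n 2 → Bool),
      IsHypergraphProperty P → IsIncreasing P → IsNontrivial P →
      width P ε ≤ C / Real.log n ^ 2) ∧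
    (∀ r : ℕ, 3 ≤ r → ∀ ε : ℝ, 0 < ε → ε < 1 / 2 → ∃ C : ℝ, ∀ n : ℕ, r ≤ n →
      ∀ P : Set (Edge n r → Bool), IsHypergraphProperty P → IsIncreasing P → IsNontrivial P →
      width P ε ≤ C * Real.log n ^ (-((r : ℝ) / ((r : ℝ) - 1)))) := by
  refine ⟨fun ε h0 h1 => ?_, fun r hr ε h0 h1 => width_bound r (by omega) h0 h1⟩
  obtain ⟨C, hC⟩ := width_bound 2 le_rfl h0 h1
  refine ⟨C, fun n hn P h2 h3 h4 => (hC n hn P h2 h3 h4).trans (le_of_eq ?_)⟩
  have hl : 0 < Real.log n := Real.log_pos (by exact_mod_cast hn)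
  have e : (-(((2 : ℕ) : ℝ) / (((2 : ℕ) : ℝ) - 1))) = -(2 : ℝ) := by norm_num
  rw [e, Real.rpow_neg hl.le, ← div_eq_mul_inv]
  congr 1
  exact_mod_cast Real.rpow_natCast (Real.log n) 2

end Vale.Agent.Results.P063.FriedgutKalai
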